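import Vale.Agent.Lib.P199.OneElementGeneral

namespace Vale.Agent.Results.P199.TwoGeneratorTheorem

open Vale.Agent.Lib.P199

/-- Unconditional reduction of Kurosh's problem for division rings to two generators.
Let `D` be a division ring and `k` a central subfield (no hypothesis on `k`).
(A) If `k[x, y]` is finite-dimensional over `k` for all `x`, `y`, then `k[T]` is
finite-dimensional for every finite `T`, i.e. `D` is locally finite over `k`.
(B) If some noncentral element `a` has `k[a, y]` finite-dimensional for every `y`, then `D` is
locally finite over `k`. -/
theorem result {k D : Type*} [Field k] [DivisionRing D] [Algebra k D] :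
    ((∀ x y : D, FiniteDimensional k (Algebra.adjoin k ({x, y} : Set D))) →
      ∀ T : Finset D, FiniteDimensional k (Algebra.adjoin k (T : Set D))) ∧
    (∀ a b : D, a * b ≠ b * a →
      (∀ y : D, FiniteDimensional k (Algebra.adjoin k ({a, y} : Set D))) →
      ∀ T : Finset D, FiniteDimensional k (Algebra.adjoin k (T : Set D))) := by
  refine ⟨?_, ?_⟩
  · intro h2 T
    exact Module.Finite.of_fg (locFin_top_of_two_generated_general h2 T (fun _ _ => trivial))
  · intro a b hab h T
    have halg : Algebra.IsAlgebraic k D := by
      refine ⟨fun y => ?_⟩
      have := h y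
      have h3 : IsIntegral k
          (⟨y, Algebra.subset_adjoin (by simp)⟩ : Algebra.adjoin k ({a, y} : Set D)) :=
        Algebra.IsIntegral.isIntegral _
      exact (h3.map (Algebra.adjoin k ({a, y} : Set D)).val).isAlgebraic
    exact Module.Finite.of_fg (locFin_top_of_one_element_all hab h T (fun _ _ => trivial))

end Vale.Agent.Results.P199.TwoGeneratorTheorem
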