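import Vale.Agent.Lib.P199.WeakLF
import Vale.Agent.Lib.P199.TwoGenGeneral

namespace Vale.Agent.Results.P199.WeaklyLocallyFinite

open Vale.Agent.Lib.P199

/-- Kurosh's problem has a positive answer for weakly locally finite division rings.
Let `D` be a division ring algebraic over a central subfield `k` (for instance its centre).
(1) If `S` is a finite subset of `D` such that the division subring generated by `S` is
finite-dimensional over its own centre, then `k[S]` is finite-dimensional over `k`.
(2) If the division subring generated by any two elements is finite-dimensional over its own
centre, then `k[S]` is finite-dimensional for every finite `S`. -/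
theorem result {k D : Type*} [Field k] [DivisionRing D] [Algebra k D] [Algebra.IsAlgebraic k D] :
    (∀ S : Finset D,
      FiniteDimensional (Subring.center (Subfield.closure (S : Set D)))
        (Subfield.closure (S : Set D)) →
      FiniteDimensional k (Algebra.adjoin k (S : Set D))) ∧
    ((∀ x y : D, FiniteDimensional (Subring.center (Subfield.closure ({x, y} : Set D)))
        (Subfield.closure ({x, y} : Set D))) →
      ∀ S : Finset D, FiniteDimensional k (Algebra.adjoin k (S : Set D))) := by
  classical
  have h1 : ∀ S : Set D,
      FiniteDimensional (Subring.center (Subfield.closure S)) (Subfield.closure S) →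
      ∀ T : Finset D, (T : Set D) ⊆ S → FiniteDimensional k (Algebra.adjoin k (T : Set D)) := by
    intro S hS T hT
    have h := locFin_adjoin_of_finite_center (k := k) (Subfield.closure S)
    exact Module.Finite.of_fg (h T (fun x hx =>
      Algebra.subset_adjoin (Subfield.subset_closure (hT hx))))
  refine ⟨fun S hS => h1 _ hS S subset_rfl, ?_⟩
  intro h2 S
  have h3 : ∀ x y : D, FiniteDimensional k (Algebra.adjoin k ({x, y} : Set D)) := by
    intro x y
    have := h1 _ (h2 x y) {x, y} (by simp)
    rwa [Finset.coe_insert, Finset.coe_singleton] at this
  exact Module.Finite.of_fg (locFin_top_of_two_generated_general h3 S (fun _ _ => trivial))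

end Vale.Agent.Results.P199.WeaklyLocallyFinite
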