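import Vale.Agent.Results.P199.KuroshObstructions
import Vale.Agent.Results.P199.TwoGeneratorTheorem
import Vale.Agent.Results.P199.WeaklyLocallyFinite

namespace Vale.Agent.Results.P199.AllResults

open Vale.Agent.Lib.P199

universe u v

/-- All our results on Kurosh's problem for division rings in one statement.
`D` is a division ring and `k` a central subfield (no hypothesis on `k`).
(1) two-generator theorem; (2) one-element criterion; and, if `D` is algebraic over `k`:
(3), (4) positive answer for weakly locally finite division rings (two generators suffice);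
(5) five necessary conditions (a)-(e) on any counterexample. -/
theorem result {k : Type u} {D : Type v} [Field k] [DivisionRing D] [Algebra k D] :
    ((∀ x y : D, FiniteDimensional k (Algebra.adjoin k ({x, y} : Set D))) →
      ∀ T : Finset D, FiniteDimensional k (Algebra.adjoin k (T : Set D))) ∧
    (∀ a b : D, a * b ≠ b * a →
      (∀ y : D, FiniteDimensional k (Algebra.adjoin k ({a, y} : Set D))) →
      ∀ T : Finset D, FiniteDimensional k (Algebra.adjoin k (T : Set D))) ∧
    (Algebra.IsAlgebraic k D →
      (∀ S : Finset D,
        FiniteDimensional (Subring.center (Subfield.closure (S : Set D)))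
          (Subfield.closure (S : Set D)) →
        FiniteDimensional k (Algebra.adjoin k (S : Set D))) ∧
      ((∀ x y : D, FiniteDimensional (Subring.center (Subfield.closure ({x, y} : Set D)))
          (Subfield.closure ({x, y} : Set D))) →
        ∀ S : Finset D, FiniteDimensional k (Algebra.adjoin k (S : Set D))) ∧
      (∀ T₀ : Finset Dˣ,
        ¬ FiniteDimensional k (Algebra.adjoin k (Units.val '' (T₀ : Set Dˣ))) →
        (¬ ElemAmenable (Subgroup.closure (T₀ : Set Dˣ))) ∧
        (∀ S : Finset D, FiniteDimensional k (Algebra.adjoin k (S : Set D)) →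
          ∃ T : Finset D, (∀ t ∈ T, ∀ s ∈ S, s * t = t * s) ∧
            ¬ FiniteDimensional k (Algebra.adjoin k (T : Set D))) ∧
        (∀ a b : D, a * b ≠ b * a →
          ∃ T : Finset D, FiniteDimensional k (Algebra.adjoin k (T : Set D)) ∧
            ¬ FiniteDimensional k (Algebra.adjoin k (insert a (T : Set D)))) ∧
        (∀ a b : D, a * b ≠ b * a →
          ∃ U : Finset Dˣ, ¬ FiniteDimensional k
            (Algebra.adjoin k ((fun w : Dˣ => (w : D) * a * ((w⁻¹ : Dˣ) : D)) '' (U : Set Dˣ)))) ∧
        (¬ ((∀ (L : Type u) [Field L] [Algebra k L] [FiniteDimensional k L], Normal k L) ∧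
            (∀ (E : Type v) [DivisionRing E] [Algebra k E] [FiniteDimensional k E] (x y : E),
              x * y = y * x))))) :=
  ⟨TwoGeneratorTheorem.result.1, TwoGeneratorTheorem.result.2, fun _ =>
    ⟨WeaklyLocallyFinite.result.1, WeaklyLocallyFinite.result.2,
      fun T₀ hT₀ => KuroshObstructions.result T₀ hT₀⟩⟩

end Vale.Agent.Results.P199.AllResults
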