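import Vale.Agent.Lib.P199.ElemAmenable
import Vale.Agent.Lib.P199.Centralizer
import Vale.Agent.Lib.P199.Tame
import Vale.Agent.Lib.P199.ConjInvariant
import Vale.Agent.Lib.P199.Jacobson

namespace Vale.Agent.Results.P199.KuroshObstructions

open Vale.Agent.Lib.P199

universe u v

/-- Five necessary conditions on a hypothetical counterexample to Kurosh's problem for division
rings. Let `D` be a division ring algebraic over a central subfield `k` and suppose that some
finite set `T₀` of units generates an infinite-dimensional `k`-subalgebra. Then
(a) the subgroup of `Dˣ` generated by `T₀` is not elementary amenable;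
(b) for every finite `S ⊆ D` generating a finite-dimensional subalgebra, the centraliser of `S`
    is again not locally finite;
(c) every noncentral element `a` is wild: some finite `T` generates a finite-dimensional
    subalgebra while `T ∪ {a}` generates an infinite-dimensional one;
(d) every noncentral element `a` has finitely many conjugates generating an infinite-dimensional
    subalgebra;
(e) `k` has a non-normal finite extension or a noncommutative finite-dimensional division
    algebra. -/
theorem result {k : Type u} {D : Type v} [Field k] [DivisionRing D] [Algebra k D]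
    [Algebra.IsAlgebraic k D] (T₀ : Finset Dˣ)
    (hT₀ : ¬ FiniteDimensional k (Algebra.adjoin k (Units.val '' (T₀ : Set Dˣ)))) :
    (¬ ElemAmenable (Subgroup.closure (T₀ : Set Dˣ))) ∧
    (∀ S : Finset D, FiniteDimensional k (Algebra.adjoin k (S : Set D)) →
      ∃ T : Finset D, (∀ t ∈ T, ∀ s ∈ S, s * t = t * s) ∧
        ¬ FiniteDimensional k (Algebra.adjoin k (T : Set D))) ∧
    (∀ a b : D, a * b ≠ b * a →
      ∃ T : Finset D, FiniteDimensional k (Algebra.adjoin k (T : Set D)) ∧
        ¬ FiniteDimensional k (Algebra.adjoin k (insert a (T : Set D)))) ∧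
    (∀ a b : D, a * b ≠ b * a →
      ∃ U : Finset Dˣ, ¬ FiniteDimensional k
        (Algebra.adjoin k ((fun w : Dˣ => (w : D) * a * ((w⁻¹ : Dˣ) : D)) '' (U : Set Dˣ)))) ∧
    (¬ ((∀ (L : Type u) [Field L] [Algebra k L] [FiniteDimensional k L], Normal k L) ∧
        (∀ (E : Type v) [DivisionRing E] [Algebra k E] [FiniteDimensional k E] (x y : E),
          x * y = y * x))) := by
  classical
  -- `D` is not locally finite
  have hnot : ¬ LocFin (⊤ : Subalgebra k D) := by
    intro h
    apply hT₀
    have h2 := h (T₀.image Units.val) (fun x _ => trivial)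
    rw [Finset.coe_image] at h2
    exact Module.Finite.of_fg h2
  refine ⟨?_, ?_, ?_, ?_, ?_⟩
  · intro hEA
    apply hT₀
    have h := locFin_alg_of_elemAmenable (F := k) _ hEA
    have h2 := h (T₀.image Units.val) (by
      intro x hx
      simp only [Finset.coe_image, Set.mem_image, Finset.mem_coe] at hx
      obtain ⟨w, hw, rfl⟩ := hx
      exact mem_alg (Subgroup.subset_closure hw))
    rw [Finset.coe_image] at h2
    exact Module.Finite.of_fg h2
  · intro S hS
    by_contra hcon
    push Not at hcon
    apply hnot
    have := hS
    refine locFin_top_of_centralizer (Algebra.adjoin k (S : Set D)) ?_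
    intro T hT
    refine Module.Finite.iff_fg.1 (hcon T ?_)
    intro t ht s hs
    have h1 := hT ht
    rw [SetLike.mem_coe, Subalgebra.mem_centralizer_iff] at h1
    exact h1 s (Algebra.subset_adjoin hs)
  · intro a b hab
    by_contra hcon
    push Not at hcon
    apply hnot
    have ha : Tame k a := by
      intro E hE
      obtain ⟨T, rfl⟩ := Subalgebra.fg_of_fg_toSubmodule hE
      have h1 := hcon T (Module.Finite.of_fg hE)
      rw [← Algebra.adjoin_union, Set.union_singleton]
      exact Module.Finite.iff_fg.1 h1
    intro T _
    exact fg_adjoin_of_forall_tame (fun c => tame_of_exists_noncentral ha hab c) T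
  · intro a b hab
    by_contra hcon
    push Not at hcon
    apply hnot
    refine locFin_top_of_conj_invariant
      (Set.range (fun w : Dˣ => (w : D) * a * ((w⁻¹ : Dˣ) : D))) ?_ ?_ ?_
    · rintro _ ⟨w, rfl⟩ c hc
      refine ⟨Units.mk0 c hc * w, ?_⟩
      simp [mul_assoc]
    · exact ⟨a, ⟨1, by simp⟩, b, hab⟩
    · intro T hT
      have : ∀ x : T, ∃ w : Dˣ, (w : D) * a * ((w⁻¹ : Dˣ) : D) = x := fun x => hT x.2
      choose w hw using this
      have h1 := hcon (Finset.univ.image w)
      refine Submodule.FG.of_le (Module.Finite.iff_fg.1 h1)
        (Subalgebra.toSubmodule.monotone (Algebra.adjoin_mono ?_))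
      intro x hx
      exact ⟨w ⟨x, hx⟩, by simp, hw ⟨x, hx⟩⟩
  · rintro ⟨hnorm, hbr⟩
    apply hnot
    have hcomm : ∀ x y : D, x * y = y * x := by
      intro x y
      by_contra hxy
      have hD : Subring.center D ≠ ⊤ := by
        intro h
        apply hxy
        have hx : x ∈ Subring.center D := by rw [h]; trivial
        exact (Subring.mem_center_iff.1 hx y).symm
      obtain ⟨a, b, hab, hfg⟩ := exists_noncomm_fg_pair hnorm hD
      have hfin : FiniteDimensional k (Algebra.adjoin k ({a, b} : Set D)) :=
        Module.Finite.of_fg hfg
      let A := Algebra.adjoin k ({a, b} : Set D)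
      let _ : DivisionRing A := divisionRingOfFiniteDimensional k A
      have h2 := hbr A ⟨a, Algebra.subset_adjoin (by simp)⟩ ⟨b, Algebra.subset_adjoin (by simp)⟩
      exact hab (congrArg Subtype.val h2)
    exact locFin_of_comm ⊤ (fun x _ y _ => hcomm x y)
      (fun x _ => Algebra.IsIntegral.isIntegral x)

end Vale.Agent.Results.P199.KuroshObstructions
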